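import Vale.Agent.P098.Defs

/-!
# P098: working definitions (see `notes/P098.md`).  FROZEN, owner helper86.
-/

open MeasureTheory Filter Topology Set Metric
open scoped ContDiff RealInnerProductSpace NNReal

noncomputable section

namespace Vale.Agent.P098

variable {d : ℕ}

/-- The coordinate vectors. -/
def bv (i : Fin d) : E d := EuclideanSpace.single i 1

/-- Linear forms. -/
abbrev B1 (d : ℕ) : Type := E d →L[ℝ] ℝ
/-- Bilinear forms. -/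
abbrev B2 (d : ℕ) : Type := E d →L[ℝ] B1 d
instance instB2a : NormedAddCommGroup (B2 d) := ContinuousLinearMap.toNormedAddCommGroup
instance instB2b : NormedSpace ℝ (B2 d) := ContinuousLinearMap.toNormedSpace
instance instB2c : AddMonoid (B2 d) := instB2a.toAddCommGroup.toAddGroup.toSubNegMonoid.toAddMonoid
/-- Trilinear forms. -/
abbrev B3 (d : ℕ) : Type := E d →L[ℝ] B2 d
instance instB3a : NormedAddCommGroup (B3 d) := ContinuousLinearMap.toNormedAddCommGroup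
instance instB3b : NormedSpace ℝ (B3 d) := ContinuousLinearMap.toNormedSpace
instance instB3c : AddMonoid (B3 d) := instB3a.toAddCommGroup.toAddGroup.toSubNegMonoid.toAddMonoid

/-- Second derivative. -/
def D2 (f : E d → ℝ) (x : E d) : B2 d := fderiv ℝ (fderiv ℝ f) x
/-- Third derivative. -/
def D3 (f : E d → ℝ) (x : E d) : B3 d := fderiv ℝ (D2 f) x
/-- Trace of a bilinear form. -/
def tr (M : B2 d) : ℝ := ∑ i, M (bv i) (bv i)
/-- The form `⟪M v, M w⟫`. -/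
def sqf (M : B2 d) (v w : E d) : ℝ := ∑ i, M v (bv i) * M w (bv i)
/-- The Laplacian. -/
def lap (f : E d → ℝ) (x : E d) : ℝ := tr (D2 f x)
/-- The pairing of two gradients. -/
def dot (f g : E d → ℝ) (x : E d) : ℝ := ∑ i, fderiv ℝ f x (bv i) * fderiv ℝ g x (bv i)

/-- Smooth and harmonic at every point of `O`. -/
def Harm (h : E d → ℝ) (O : Set (E d)) : Prop := ∀ x ∈ O, ContDiffAt ℝ ∞ h x ∧ lap h x = 0

/-- Globally Lipschitz. -/
def Lip (u : E d → ℝ) : Prop := ∃ L : ℝ≥0, LipschitzWith L u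

/-- The energy density. -/
def en (u : E d → ℝ) (x : E d) : ℝ := ‖fderiv ℝ u x‖ ^ 2 + if 0 < u x then 1 else 0

/-- A Lipschitz global minimizer. -/
structure Mn (u : E d → ℝ) : Prop where
  lip : Lip u
  nn : ∀ x, 0 ≤ u x
  le : ∀ v : E d → ℝ, Lip v → (∀ x, 0 ≤ v x) → (∃ R : ℝ, ∀ x, R ≤ ‖x‖ → v x = u x) →
    0 ≤ ∫ x, (en v x - en u x)

/-- One-homogeneous. -/
def Hom (u : E d → ℝ) : Prop := ∀ r : ℝ, 0 < r → ∀ x, u (r • x) = r * u x

/-- Zero or flat. -/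
def Flat (u : E d → ℝ) : Prop := (∀ x, u x = 0) ∨ ∃ e : E d, ‖e‖ = 1 ∧ ∀ x, u x = max ⟪e, x⟫ 0

/-- The free boundary. -/
def FB (u : E d → ℝ) : Set (E d) := {x | u x = 0 ∧ ∀ r : ℝ, 0 < r → ∃ y, ‖y - x‖ < r ∧ 0 < u y}

/-- Rescaling around `x₀`. -/
def sc (u : E d → ℝ) (x₀ : E d) (r : ℝ) (x : E d) : ℝ := u (x₀ + r • x) / r

/-- `(P - ε)₊ ≤ u ≤ (P + ε)₊` on the ball of radius `r`. -/
def Trap (u P : E d → ℝ) (r ε : ℝ) : Prop :=
  ∀ x, ‖x‖ < r → P x - ε ≤ u x ∧ u x ≤ max (P x + ε) 0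

/-- Reflection in the hyperplane orthogonal to the unit vector `e`. -/
def rf (e x : E d) : E d := x - (2 * ⟪e, x⟫) • e

/-- Jets of order three. -/
abbrev Jet (d : ℕ) : Type := ℝ × B1 d × B2 d × B3 d

/-- The cubic polynomial of a jet. -/
def ev (j : Jet d) (x : E d) : ℝ := j.1 + j.2.1 x + j.2.2.1 x x / 2 + j.2.2.2 x x x / 6

/-- Symmetric jets of harmonic polynomials. -/
structure HJ (j : Jet d) : Prop where
  s2 : ∀ v w, j.2.2.1 v w = j.2.2.1 w v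
  s3 : ∀ a v w, j.2.2.2 a v w = j.2.2.2 v a w
  s3' : ∀ a v w, j.2.2.2 a v w = j.2.2.2 a w v
  t2 : tr j.2.2.1 = 0
  t3 : ∀ a, tr (j.2.2.2 a) = 0

/-- Harmonic jets of degree at most `k`, even with respect to `e`. -/
structure EJ (e : E d) (k : ℕ) (j : Jet d) : Prop where
  hj : HJ j
  even : ∀ x, ev j (rf e x) = ev j x
  d2 : k < 2 → j.2.2.1 = 0
  d3 : k < 3 → j.2.2.2 = 0

/-- The jet of a solution at a free boundary point with normal `e`. -/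
structure SJ (e : E d) (j : Jet d) : Prop where
  hj : HJ j
  unit : ‖e‖ = 1
  c0 : j.1 = 0
  c1 : ∀ v, j.2.1 v = ⟪e, v⟫
  c2 : ∀ v, j.2.2.1 e v = j.2.2.1 e e * ⟪e, v⟫
  c3 : ∀ v w, ⟪e, v⟫ = 0 → ⟪e, w⟫ = 0 →
    j.2.2.2 e v w + sqf j.2.2.1 v w - j.2.2.1 e e * j.2.2.1 v w = 0

/-- The second normal derivative (minus the mean curvature on the free boundary). -/
def mc (u : E d → ℝ) (x : E d) : ℝ := D2 u x (gradient u x) (gradient u x)

/-- The boundary relations up to the error `ε` at the point `x`. -/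
structure BC (u : E d → ℝ) (x : E d) (ε : ℝ) : Prop where
  g1 : |‖gradient u x‖ - 1| ≤ ε
  g2 : |1 - ‖gradient u x‖ ^ 2 + 2 * mc u x * u x| ≤ ε * u x
  s : ∀ v, |D2 u x (gradient u x) v - mc u x * ⟪gradient u x, v⟫| ≤ ε * ‖v‖
  t : ∀ v w, ⟪gradient u x, v⟫ = 0 → ⟪gradient u x, w⟫ = 0 →
    |D3 u x (gradient u x) v w + sqf (D2 u x) v w - mc u x * D2 u x v w| ≤ ε * ‖v‖ * ‖w‖

/-- Admissible test functions for the stability inequality. -/
structure Test (u φ : E d → ℝ) : Prop where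
  sm : ∀ x, 0 < u x → ContDiffAt ℝ 1 φ x
  bd : ∃ C : ℝ, ∀ x, 0 < u x → |φ x| ≤ C ∧ ‖fderiv ℝ φ x‖ ≤ C
  nn : ∀ x, 0 < u x → 0 ≤ φ x
  supp : ∃ a b : ℝ, 0 < a ∧ ∀ x, 0 < u x → ‖x‖ ≤ a ∨ b ≤ ‖x‖ → φ x = 0

/-- A one-homogeneous solution that is `C³` up to the free boundary away from the origin. -/
structure PreCone (u : E d → ℝ) : Prop where
  lip : Lip u
  nn : ∀ x, 0 ≤ u x
  hom : Hom u
  harm : Harm u {x | 0 < u x}
  bd : ∃ C : ℝ, ∀ x, 0 < u x → ‖x‖ * ‖D2 u x‖ ≤ C ∧ ‖x‖ ^ 2 * ‖D3 u x‖ ≤ C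
  bc : ∀ ε : ℝ, 0 < ε → ∀ a b : ℝ, 0 < a → ∃ δ : ℝ, 0 < δ ∧
    ∀ x, a ≤ ‖x‖ → ‖x‖ ≤ b → 0 < u x → u x < δ → BC u x ε

/-- A stable cone: the interface between the two stages. -/
structure Cone (u : E d → ℝ) : Prop extends PreCone u where
  stab : ∀ φ : E d → ℝ, Test u φ →
    ∫ x in {x | 0 < u x}, fderiv ℝ (fun y => mc u y * φ y ^ 2) x (gradient u x) ≤
      ∫ x in {x | 0 < u x}, ‖fderiv ℝ φ x‖ ^ 2

end Vale.Agent.P098
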