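import Mathlib

/-!
# P098: definitions used in the statement
-/

open MeasureTheory

noncomputable section

namespace Vale.Agent.P098

/-- Euclidean space `ℝ^d` -/
abbrev E (d : ℕ) : Type := EuclideanSpace ℝ (Fin d)

variable {d : ℕ}

/-- `u` lies in `H¹_loc(ℝ^d)` with weak gradient `g` -/
structure H1loc (u : E d → ℝ) (g : E d → E d) : Prop where
  val_mem : ∀ R : ℝ, MemLp u 2 (volume.restrict (Metric.ball 0 R))
  grad_mem : ∀ R : ℝ, MemLp g 2 (volume.restrict (Metric.ball 0 R))
  weak : ∀ φ : E d → ℝ, ContDiff ℝ (⊤ : ℕ∞) φ → HasCompactSupport φ → ∀ i : Fin d,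
    ∫ x, fderiv ℝ φ x (EuclideanSpace.single i 1) * u x = -∫ x, φ x * g x i

/-- the one-phase Bernoulli energy on `B` of the function `u` with weak gradient `g` -/
def energy (B : Set (E d)) (u : E d → ℝ) (g : E d → E d) : ℝ :=
  ∫ x in B, (‖g x‖ ^ 2 + if 0 < u x then 1 else 0)

/-- `u` is nonnegative, lies in `H¹_loc` and minimizes the energy on every ball among nonnegative
`H¹_loc` functions that agree with `u` outside a compact subset of the ball -/
structure IsGlobalMin (u : E d → ℝ) (g : E d → E d) : Prop where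
  mem : H1loc u g
  nonneg : ∀ᵐ x, 0 ≤ u x
  le : ∀ (c : E d) (r : ℝ) (v : E d → ℝ) (h : E d → E d), H1loc v h → (∀ᵐ x, 0 ≤ v x) →
    (∃ K : Set (E d), IsCompact K ∧ K ⊆ Metric.ball c r ∧ ∀ᵐ x, x ∉ K → v x = u x) →
      energy (Metric.ball c r) u g ≤ energy (Metric.ball c r) v h

end Vale.Agent.P098
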